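import Vale.Agent.P002.Main

/-!
# P002: rank three, three punctured sphere, stated with Mathlib notions only

Same theorem as `SphereRankThree`, with the boundary conditions written out and with the number
field made explicit: it is the field generated by the nine prescribed eigenvalues.
-/

namespace Vale.Agent.Results.P002.EigenvalueField

open Matrix Vale.Agent.P002

theorem result (a b c : Fin 3 → ℂ) (D₁ D₂ D₃ : SpecialLinearGroup (Fin 3) ℂ)
    (h₁ : (D₁ : Matrix (Fin 3) (Fin 3) ℂ) = Matrix.diagonal a)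
    (h₂ : (D₂ : Matrix (Fin 3) (Fin 3) ℂ) = Matrix.diagonal b)
    (h₃ : (D₃ : Matrix (Fin 3) (Fin 3) ℂ) = Matrix.diagonal c)
    (hai : Function.Injective a) (hbi : Function.Injective b) (hci : Function.Injective c)
    (haz : ∀ i, IsIntegral ℤ (a i)) (hbz : ∀ i, IsIntegral ℤ (b i))
    (hcz : ∀ i, IsIntegral ℤ (c i)) :
    FiniteDimensional ℚ
        (IntermediateField.adjoin ℚ (Set.range a ∪ Set.range b ∪ Set.range c)) ∧
      ∀ (k : ℕ) (w : Fin k → FreeGroup (Fin 2)) (F : MvPolynomial (Fin k) ℂ),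
        (∀ ρ : FreeGroup (Fin 2) →* SpecialLinearGroup (Fin 3) ℂ,
          IsConj (ρ (FreeGroup.of 0)) D₁ → IsConj (ρ (FreeGroup.of 1)) D₂ →
          IsConj (ρ (FreeGroup.of 0 * FreeGroup.of 1)⁻¹) D₃ →
          (∀ g, (ρ g : Matrix (Fin 3) (Fin 3) ℂ).trace ∈
              IntermediateField.adjoin ℚ (Set.range a ∪ Set.range b ∪ Set.range c) ∧
            IsIntegral ℤ (ρ g : Matrix (Fin 3) (Fin 3) ℂ).trace) →
          MvPolynomial.eval (fun i => (ρ (w i) : Matrix (Fin 3) (Fin 3) ℂ).trace) F = 0) →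
        ∀ ρ : FreeGroup (Fin 2) →* SpecialLinearGroup (Fin 3) ℂ,
          IsConj (ρ (FreeGroup.of 0)) D₁ → IsConj (ρ (FreeGroup.of 1)) D₂ →
          IsConj (ρ (FreeGroup.of 0 * FreeGroup.of 1)⁻¹) D₃ →
          MvPolynomial.eval (fun i => (ρ (w i) : Matrix (Fin 3) (Fin 3) ℂ).trace) F = 0 := by
  classical
  have det3 : ∀ (D : SpecialLinearGroup (Fin 3) ℂ) (x : Fin 3 → ℂ),
      (D : Matrix (Fin 3) (Fin 3) ℂ) = Matrix.diagonal x → x 0 * x 1 * x 2 = 1 := by
    intro D x h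
    have := D.2
    rw [h, det_diagonal, Fin.prod_univ_three] at this
    exact this
  have ha := det3 D₁ a h₁
  have hb := det3 D₂ b h₂
  have hc := det3 D₃ c h₃
  have e₁ : D₁ = diagSL a ha := Subtype.ext h₁
  have e₂ : D₂ = diagSL b hb := Subtype.ext h₂
  have e₃ : D₃ = diagSL c hc := Subtype.ext h₃
  set S : Set ℂ := Set.range a ∪ Set.range b ∪ Set.range c with hS
  have hint : ∀ x ∈ S, IsIntegral ℚ x := by
    intro x hx
    rcases hx with (⟨i, rfl⟩ | ⟨i, rfl⟩) | ⟨i, rfl⟩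
    · exact (haz i).tower_top
    · exact (hbz i).tower_top
    · exact (hcz i).tower_top
  have hfin : Finite S := by
    have : S.Finite := ((Set.finite_range a).union (Set.finite_range b)).union (Set.finite_range c)
    exact this.to_subtype
  refine ⟨IntermediateField.finiteDimensional_adjoin hint, ?_⟩
  intro k w F hF ρ r₁ r₂ r₃
  set O : Subring ℂ := (integralClosure ℤ ℂ).toSubring ⊓ (IntermediateField.adjoin ℚ S).toSubring
    with hO
  have memO : ∀ z : ℂ, z ∈ O ↔ (IsIntegral ℤ z ∧ z ∈ IntermediateField.adjoin ℚ S) := by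
    intro z
    rw [hO, Subring.mem_inf]
    rfl
  refine main_subring O a b c ha hb hc hai hbi hci ?_ ?_ ?_ k w F ?_ ρ
    ⟨e₁ ▸ r₁, e₂ ▸ r₂, e₃ ▸ r₃⟩
  · intro i
    exact (memO _).2 ⟨haz i, IntermediateField.subset_adjoin ℚ S (Or.inl (Or.inl ⟨i, rfl⟩))⟩
  · intro i
    exact (memO _).2 ⟨hbz i, IntermediateField.subset_adjoin ℚ S (Or.inl (Or.inr ⟨i, rfl⟩))⟩
  · intro i
    exact (memO _).2 ⟨hcz i, IntermediateField.subset_adjoin ℚ S (Or.inr ⟨i, rfl⟩)⟩
  · intro ρ' hρ' h'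
    exact hF ρ' (e₁ ▸ hρ'.1) (e₂ ▸ hρ'.2.1) (e₃ ▸ hρ'.2.2)
      fun g => ⟨((memO _).1 (h' g)).2, ((memO _).1 (h' g)).1⟩

end Vale.Agent.Results.P002.EigenvalueField
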