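import Vale.Agent.P002.Main

/-!
# P002: integral points on the rank three character varieties of the three punctured sphere

`X = P^1 minus {0, 1, ∞}`, `r = 3`, and the three boundary classes are regular semisimple with
eigenvalues algebraic integers (for instance roots of unity, the quasi-unipotent case).
-/

namespace Vale.Agent.Results.P002.SphereRankThree

open Matrix Vale.Agent.P002

theorem result (a b c : Fin 3 → ℂ)
    (ha : a 0 * a 1 * a 2 = 1) (hb : b 0 * b 1 * b 2 = 1) (hc : c 0 * c 1 * c 2 = 1)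
    (hai : Function.Injective a) (hbi : Function.Injective b) (hci : Function.Injective c)
    (haz : ∀ i, IsIntegral ℤ (a i)) (hbz : ∀ i, IsIntegral ℤ (b i))
    (hcz : ∀ i, IsIntegral ℤ (c i)) :
    ∃ L : IntermediateField ℚ ℂ, FiniteDimensional ℚ L ∧
      ∀ (k : ℕ) (w : Fin k → FreeGroup (Fin 2)) (F : MvPolynomial (Fin k) ℂ),
        (∀ ρ : FreeGroup (Fin 2) →* SpecialLinearGroup (Fin 3) ℂ, Bdry a b c ha hb hc ρ →
          (∀ g, (ρ g : Matrix (Fin 3) (Fin 3) ℂ).trace ∈ L ∧
            IsIntegral ℤ (ρ g : Matrix (Fin 3) (Fin 3) ℂ).trace) →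
          MvPolynomial.eval (fun i => (ρ (w i) : Matrix (Fin 3) (Fin 3) ℂ).trace) F = 0) →
        ∀ ρ : FreeGroup (Fin 2) →* SpecialLinearGroup (Fin 3) ℂ, Bdry a b c ha hb hc ρ →
          MvPolynomial.eval (fun i => (ρ (w i) : Matrix (Fin 3) (Fin 3) ℂ).trace) F = 0 := by
  classical
  set S : Set ℂ := Set.range a ∪ Set.range b ∪ Set.range c with hS
  have hfin : Finite S := by
    have : S.Finite := ((Set.finite_range a).union (Set.finite_range b)).union (Set.finite_range c)
    exact this.to_subtype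
  have hint : ∀ x ∈ S, IsIntegral ℚ x := by
    intro x hx
    rcases hx with (⟨i, rfl⟩ | ⟨i, rfl⟩) | ⟨i, rfl⟩
    · exact (haz i).tower_top
    · exact (hbz i).tower_top
    · exact (hcz i).tower_top
  refine ⟨IntermediateField.adjoin ℚ S, IntermediateField.finiteDimensional_adjoin hint, ?_⟩
  intro k w F hF ρ hρ
  set O : Subring ℂ := (integralClosure ℤ ℂ).toSubring ⊓ (IntermediateField.adjoin ℚ S).toSubring
    with hO
  have memO : ∀ z : ℂ, z ∈ O ↔ (IsIntegral ℤ z ∧ z ∈ IntermediateField.adjoin ℚ S) := by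
    intro z
    rw [hO, Subring.mem_inf]
    rfl
  refine main_subring O a b c ha hb hc hai hbi hci ?_ ?_ ?_ k w F ?_ ρ hρ
  · intro i
    exact (memO _).2 ⟨haz i, IntermediateField.subset_adjoin ℚ S (Or.inl (Or.inl ⟨i, rfl⟩))⟩
  · intro i
    exact (memO _).2 ⟨hbz i, IntermediateField.subset_adjoin ℚ S (Or.inl (Or.inr ⟨i, rfl⟩))⟩
  · intro i
    exact (memO _).2 ⟨hcz i, IntermediateField.subset_adjoin ℚ S (Or.inr ⟨i, rfl⟩)⟩
  · intro ρ' hρ' h'
    exact hF ρ' hρ' fun g => ⟨((memO _).1 (h' g)).2, ((memO _).1 (h' g)).1⟩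

end Vale.Agent.Results.P002.SphereRankThree
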